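import Mathlib

namespace Vale.Agent.P315

/-- `Step u v`: the string `v` arises from the string `u` by one insertion, one deletion or one
substitution of a single symbol. -/
inductive Step {σ : Type*} : List σ → List σ → Prop
  | ins (u v : List σ) (a : σ) : Step (u ++ v) (u ++ a :: v)
  | del (u v : List σ) (a : σ) : Step (u ++ a :: v) (u ++ v)
  | sub (u v : List σ) (a b : σ) : Step (u ++ a :: v) (u ++ b :: v)

/-- `Reach k u v`: `u` can be transformed into `v` by a sequence of exactly `k` single-symbol
edits. -/
inductive Reach {σ : Type*} : ℕ → List σ → List σ → Prop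
  | refl (u : List σ) : Reach 0 u u
  | tail {k : ℕ} {u v w : List σ} : Reach k u v → Step v w → Reach (k + 1) u w

/-- Unit-cost edit distance: the least number of single-symbol edits transforming `u` into `v`. -/
noncomputable def ED {σ : Type*} (u v : List σ) : ℕ := sInf {k | Reach k u v}

/-- Equality-comparison decision trees for inputs consisting of two strings of length `n`.
Position `Sum.inl i` is the `i`-th symbol of the first string and `Sum.inr j` the `j`-th symbol of
the second one.  A leaf `out r` outputs the real number `r`; a node `cmp a b t₁ t₂` asks whether the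
symbols at positions `a` and `b` are equal and continues with `t₁` if they are, with `t₂` if not. -/
inductive CmpTree (n : ℕ) : Type
  | out (r : ℝ) : CmpTree n
  | cmp (a b : Fin n ⊕ Fin n) (t₁ t₂ : CmpTree n) : CmpTree n

/-- The output of the tree on the input strings `x`, `y`. -/
def CmpTree.eval {n : ℕ} : CmpTree n → (Fin n → ℕ) → (Fin n → ℕ) → ℝ
  | .out r, _, _ => r
  | .cmp a b t₁ t₂, x, y => if Sum.elim x y a = Sum.elim x y b then t₁.eval x y else t₂.eval x y

/-- The number of comparisons made by the tree on the input strings `x`, `y`. -/
def CmpTree.cost {n : ℕ} : CmpTree n → (Fin n → ℕ) → (Fin n → ℕ) → ℕ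
  | .out _, _, _ => 0
  | .cmp a b t₁ t₂, x, y =>
      (if Sum.elim x y a = Sum.elim x y b then t₁.cost x y else t₂.cost x y) + 1

/-- The length of the longest common initial segment of two strings. -/
def lcp : List ℕ → List ℕ → ℕ
  | a :: u, b :: v => if a = b then lcp u v + 1 else 0
  | _, _ => 0

/-- The suffix of an input string that starts at the given position. -/
def suffixAt {n : ℕ} (x y : Fin n → ℕ) : Fin n ⊕ Fin n → List ℕ
  | Sum.inl i => (List.ofFn x).drop i
  | Sum.inr j => (List.ofFn y).drop j

/-- Decision trees whose queries are longest-common-extension queries.  A node `ask a b next` asks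
for the length `k` of the longest common initial segment of the two suffixes of the input that start
at the positions `a` and `b`, and continues with `next k`. -/
inductive LceTree (n : ℕ) : Type
  | out (r : ℝ) : LceTree n
  | ask (a b : Fin n ⊕ Fin n) (next : ℕ → LceTree n) : LceTree n

/-- The output of the tree on the input strings `x`, `y`. -/
def LceTree.eval {n : ℕ} : LceTree n → (Fin n → ℕ) → (Fin n → ℕ) → ℝ
  | .out r, _, _ => r
  | .ask a b next, x, y => (next (lcp (suffixAt x y a) (suffixAt x y b))).eval x y

/-- The number of queries made by the tree on the input strings `x`, `y`. -/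
def LceTree.cost {n : ℕ} : LceTree n → (Fin n → ℕ) → (Fin n → ℕ) → ℕ
  | .out _, _, _ => 0
  | .ask a b next, x, y => (next (lcp (suffixAt x y a) (suffixAt x y b))).cost x y + 1

end Vale.Agent.P315
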