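import Vale.Agent.P315.Defs

namespace Vale.Agent.P315

variable {σ : Type*}

theorem Step.append_left (p : List σ) {u v : List σ} (h : Step u v) : Step (p ++ u) (p ++ v) := by
  cases h with
  | ins u v a => simpa [List.append_assoc] using Step.ins (p ++ u) v a
  | del u v a => simpa [List.append_assoc] using Step.del (p ++ u) v a
  | sub u v a b => simpa [List.append_assoc] using Step.sub (p ++ u) v a b

theorem Step.append_right (s : List σ) {u v : List σ} (h : Step u v) : Step (u ++ s) (v ++ s) := by
  cases h with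
  | ins u v a => simpa [List.append_assoc] using Step.ins u (v ++ s) a
  | del u v a => simpa [List.append_assoc] using Step.del u (v ++ s) a
  | sub u v a b => simpa [List.append_assoc] using Step.sub u (v ++ s) a b

theorem Reach.append_left (p : List σ) {k : ℕ} {u v : List σ} (h : Reach k u v) :
    Reach k (p ++ u) (p ++ v) := by
  induction h with
  | refl u => exact Reach.refl _
  | tail _ hs ih => exact Reach.tail ih (hs.append_left p)

theorem Reach.append_right (s : List σ) {k : ℕ} {u v : List σ} (h : Reach k u v) :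
    Reach k (u ++ s) (v ++ s) := by
  induction h with
  | refl u => exact Reach.refl _
  | tail _ hs ih => exact Reach.tail ih (hs.append_right s)

theorem Reach.trans {k l : ℕ} {u v w : List σ} (h₁ : Reach k u v) (h₂ : Reach l v w) :
    Reach (k + l) u w := by
  induction h₂ with
  | refl u => simpa using h₁
  | tail _ hs ih => exact Reach.tail (ih h₁) hs

theorem Reach.append {k l : ℕ} {u v u' v' : List σ} (h₁ : Reach k u v) (h₂ : Reach l u' v') :
    Reach (k + l) (u ++ u') (v ++ v') :=
  (h₁.append_right u').trans (h₂.append_left v)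

theorem reach_nil_left (v : List σ) : Reach v.length [] v := by
  induction v using List.reverseRecOn with
  | nil => exact Reach.refl _
  | append_singleton v a ih =>
    have : Step (v ++ []) (v ++ a :: []) := Step.ins v [] a
    simp only [List.append_nil] at this
    simpa using Reach.tail ih this

theorem reach_nil_right (v : List σ) : Reach v.length v [] := by
  induction v with
  | nil => exact Reach.refl _
  | cons a v ih =>
    have h1 : Step ([] ++ a :: v) ([] ++ v) := Step.del [] v a
    have h2 : Reach 1 (a :: v) v := by simpa using Reach.tail (Reach.refl (a :: v)) h1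
    have := h2.trans ih
    simpa [add_comm] using this

theorem ED_le_of_reach {k : ℕ} {u v : List σ} (h : Reach k u v) : ED u v ≤ k := Nat.sInf_le h

theorem reach_ED (u v : List σ) : Reach (ED u v) u v := by
  have : ({k | Reach k u v} : Set ℕ).Nonempty :=
    ⟨_, (reach_nil_right u).trans (reach_nil_left v)⟩
  exact Nat.sInf_mem this

theorem reach_map [DecidableEq σ] (f g : ℕ → σ) (l : List ℕ) :
    Reach (l.countP (fun i => decide (f i ≠ g i))) (l.map f) (l.map g) := by
  induction l with
  | nil => exact Reach.refl _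
  | cons a l ih =>
    by_cases h : f a = g a
    · have := ih.append_left [f a]
      simpa [List.countP_cons, h] using this
    · have h1 : Step ([] ++ f a :: l.map f) ([] ++ g a :: l.map f) := Step.sub [] _ _ _
      have h2 : Reach 1 (f a :: l.map f) (g a :: l.map f) := by
        simpa using Reach.tail (Reach.refl _) h1
      have := h2.trans (ih.append_left [g a])
      simpa [List.countP_cons, h, add_comm] using this

theorem Step.countP_le (p : σ → Bool) {u v : List σ} (h : Step u v) :
    v.countP p ≤ u.countP p + 1 := by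
  cases h with
  | ins u v a => simp only [List.countP_append, List.countP_cons]; split <;> omega
  | del u v a => simp only [List.countP_append, List.countP_cons]; split <;> omega
  | sub u v a b => simp only [List.countP_append, List.countP_cons]; split <;> split <;> omega

theorem Reach.countP_le (p : σ → Bool) {k : ℕ} {u v : List σ} (h : Reach k u v) :
    v.countP p ≤ u.countP p + k := by
  induction h with
  | refl u => simp
  | tail _ hs ih => have := hs.countP_le p; omega

/-- The list of queries made on the input. -/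
def LceTree.asked {n : ℕ} : LceTree n → (Fin n → ℕ) → (Fin n → ℕ) →
    List ((Fin n ⊕ Fin n) × (Fin n ⊕ Fin n))
  | .out _, _, _ => []
  | .ask a b next, x, y => (a, b) :: (next (lcp (suffixAt x y a) (suffixAt x y b))).asked x y

theorem LceTree.length_asked {n : ℕ} (t : LceTree n) (x y : Fin n → ℕ) :
    (t.asked x y).length = t.cost x y := by
  induction t with
  | out r => rfl
  | ask a b next ih => simp only [LceTree.asked, LceTree.cost, List.length_cons, ih]

theorem LceTree.eval_congr {n : ℕ} (t : LceTree n) (x y x' y' : Fin n → ℕ)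
    (h : ∀ q ∈ t.asked x y, lcp (suffixAt x y q.1) (suffixAt x y q.2)
      = lcp (suffixAt x' y' q.1) (suffixAt x' y' q.2)) : t.eval x' y' = t.eval x y := by
  induction t with
  | out r => rfl
  | ask a b next ih =>
    have hab := h (a, b) (by simp [LceTree.asked])
    simp only at hab
    simp only [LceTree.eval, ← hab]
    apply ih
    intro q hq
    apply h
    simp [LceTree.asked, hq]

theorem suffixAt_eq_cons {n : ℕ} (x y : Fin n → ℕ) (a : Fin n ⊕ Fin n) :
    ∃ tl, suffixAt x y a = Sum.elim x y a :: tl := by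
  rcases a with i | j
  · refine ⟨(List.ofFn x).drop (i + 1), ?_⟩
    simp only [suffixAt, Sum.elim_inl]
    rw [List.drop_eq_getElem_cons (by simp)]
    simp
  · refine ⟨(List.ofFn y).drop (j + 1), ?_⟩
    simp only [suffixAt, Sum.elim_inr]
    rw [List.drop_eq_getElem_cons (by simp)]
    simp

theorem length_suffixAt {n : ℕ} (x y x' y' : Fin n → ℕ) (a : Fin n ⊕ Fin n) :
    (suffixAt x y a).length = (suffixAt x' y' a).length := by
  rcases a with i | j <;> simp [suffixAt]

theorem lcp_self (u : List ℕ) : lcp u u = u.length := by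
  induction u with
  | nil => rfl
  | cons a u ih => simp [lcp, ih]

theorem lcp_suffixAt_eq_zero_iff {n : ℕ} (x y : Fin n → ℕ) (a b : Fin n ⊕ Fin n) :
    lcp (suffixAt x y a) (suffixAt x y b) = 0 ↔ Sum.elim x y a ≠ Sum.elim x y b := by
  obtain ⟨ta, ha⟩ := suffixAt_eq_cons x y a
  obtain ⟨tb, hb⟩ := suffixAt_eq_cons x y b
  rw [ha, hb]
  by_cases h : Sum.elim x y a = Sum.elim x y b <;> simp [lcp, h]

/-- Index pair touched by a query. -/
def key {n : ℕ} : (Fin n ⊕ Fin n) × (Fin n ⊕ Fin n) → ℕ × ℕ
  | (Sum.inl i, Sum.inr j) => (i, j)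
  | (Sum.inr j, Sum.inl i) => (i, j)
  | _ => (n, n)

theorem ofFn_eq_map_range (n : ℕ) (f : ℕ → ℕ) :
    List.ofFn (fun i : Fin n => f i) = (List.range n).map f := by
  apply List.ext_getElem <;> simp

/-- The second string with planted matches on the diagonal `d`, off the set `P`. -/
def planted (n d : ℕ) (P : Finset (ℕ × ℕ)) (j : ℕ) : ℕ :=
  if d ≤ j ∧ (j - d, j) ∉ P then j - d else n + j

theorem ED_planted_le (n d : ℕ) (hd : d ≤ n) (P : Finset (ℕ × ℕ)) :
    ED ((List.range n).map id) ((List.range n).map (planted n d P))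
      ≤ 2 * d + (P.filter (fun p => p.2 = p.1 + d)).card := by
  obtain ⟨m, rfl⟩ : ∃ m, n = m + d := ⟨n - d, by omega⟩
  have hx : (List.range (m + d)).map id
      = [] ++ ((List.range m).map id ++ ((List.range d).map (m + ·)).map id) := by
    rw [List.range_add]; simp
  have hy : (List.range (m + d)).map (planted (m + d) d P)
      = (List.range d).map (planted (m + d) d P) ++
        ((List.range m).map (fun i => planted (m + d) d P (d + i)) ++ []) := by
    rw [add_comm m d, List.range_add]; simp [Function.comp_def]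
  have h1 := reach_nil_left ((List.range d).map (planted (m + d) d P))
  have h2 := reach_map id (fun i => planted (m + d) d P (d + i)) (List.range m)
  have h3 := reach_nil_right (((List.range d).map (m + ·)).map id)
  have h := h1.append (h2.append h3)
  rw [← hx, ← hy] at h
  refine (ED_le_of_reach h).trans ?_
  simp only [List.length_map, List.length_range]
  have hc : (List.range m).countP (fun i => decide (id i ≠ planted (m + d) d P (d + i)))
      ≤ (P.filter (fun p => p.2 = p.1 + d)).card := by
    rw [List.countP_eq_length_filter]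
    have hnd : ((List.range m).filter
        (fun i => decide (id i ≠ planted (m + d) d P (d + i)))).Nodup :=
      (List.nodup_range).filter _
    rw [← List.toFinset_card_of_nodup hnd]
    apply Finset.card_le_card_of_injOn (fun i => (i, i + d))
    · intro i hi
      simp only [List.coe_toFinset, List.mem_filter, List.mem_range, Set.mem_ofPred_eq,
        decide_eq_true_eq, id] at hi
      simp only [Finset.coe_filter, Set.mem_ofPred_eq, and_true]
      by_contra hP
      apply hi.2
      unfold planted
      rw [if_pos]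
      · omega
      · refine ⟨by omega, ?_⟩
        have : d + i - d = i := by omega
        rw [this, add_comm d i]
        exact hP
    · intro a _ b _ hab
      simpa using congrArg Prod.fst hab
  omega

theorem le_ED_distinct (n : ℕ) :
    n ≤ ED ((List.range n).map id) ((List.range n).map (n + ·)) := by
  have h := (reach_ED ((List.range n).map id) ((List.range n).map (n + ·))).countP_le
    (fun a => decide (n ≤ a))
  have h1 : ((List.range n).map id).countP (fun a => decide (n ≤ a)) = 0 := by
    rw [List.countP_eq_zero]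
    intro a ha
    simp only [List.map_id_fun, id, List.mem_range] at ha
    simp; omega
  have h2 : ((List.range n).map (n + ·)).countP (fun a => decide (n ≤ a)) = n := by
    rw [List.countP_map]
    have : (List.range n).countP ((fun a => decide (n ≤ a)) ∘ (n + ·)) = (List.range n).length := by
      rw [List.countP_eq_length]
      intro a _
      simp
    simpa using this
  omega

theorem planted_cases (n d : ℕ) (P : Finset (ℕ × ℕ)) (j : ℕ) :
    (planted n d P j = j - d ∧ d ≤ j ∧ (j - d, j) ∉ P) ∨ planted n d P j = n + j := by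
  unfold planted
  split
  · rename_i h; exact Or.inl ⟨rfl, h⟩
  · exact Or.inr rfl

/-- Distinct positions whose index pair lies in `P` carry distinct symbols in the planted input. -/
theorem planted_ne {n : ℕ} (d : ℕ) (P : Finset (ℕ × ℕ)) (a b : Fin n ⊕ Fin n) (hab : a ≠ b)
    (hk : key (a, b) ∈ P) :
    Sum.elim (fun i : Fin n => (i : ℕ)) (fun j : Fin n => planted n d P (j : ℕ)) a ≠
      Sum.elim (fun i : Fin n => (i : ℕ)) (fun j : Fin n => planted n d P (j : ℕ)) b := by
  rcases a with i | j <;> rcases b with i' | j'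
  · simp only [Sum.elim_inl]
    intro h
    exact hab (by rw [Fin.ext h])
  · simp only [Sum.elim_inl, Sum.elim_inr]
    simp only [key] at hk
    have hi := i.2
    rcases planted_cases n d P j' with ⟨h1, h2, h3⟩ | h1
    · rw [h1]
      intro h; rw [← h] at h3; exact absurd hk h3
    · rw [h1]; omega
  · simp only [Sum.elim_inl, Sum.elim_inr]
    simp only [key] at hk
    have hi := i'.2
    rcases planted_cases n d P j with ⟨h1, h2, h3⟩ | h1
    · rw [h1]
      intro h; rw [h] at h3; exact absurd hk h3
    · rw [h1]; omega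
  · simp only [Sum.elim_inr]
    have hj := j.2
    have hj' := j'.2
    have hne : (j : ℕ) ≠ j' := fun h => hab (by rw [Fin.ext h])
    rcases planted_cases n d P j with ⟨h1, h2, h3⟩ | h1 <;>
    rcases planted_cases n d P j' with ⟨h1', h2', h3'⟩ | h1' <;> omega

theorem distinct_ne {n : ℕ} (a b : Fin n ⊕ Fin n) (hab : a ≠ b) :
    Sum.elim (fun i : Fin n => (i : ℕ)) (fun j : Fin n => n + (j : ℕ)) a ≠
      Sum.elim (fun i : Fin n => (i : ℕ)) (fun j : Fin n => n + (j : ℕ)) b := by
  rcases a with i | j <;> rcases b with i' | j'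
  · simp only [Sum.elim_inl]
    intro h
    exact hab (by rw [Fin.ext h])
  · simp only [Sum.elim_inl, Sum.elim_inr]
    have hi := i.2
    omega
  · simp only [Sum.elim_inl, Sum.elim_inr]
    have hi := i'.2
    omega
  · simp only [Sum.elim_inr]
    have hne : (j : ℕ) ≠ j' := fun h => hab (by rw [Fin.ext h])
    omega

/-- On each diagonal the tree must have touched many pairs. -/
theorem diag_bound (n : ℕ) (α : ℝ) (t : LceTree n)
    (hcorrect : ∀ x y : Fin n → ℕ, (∀ i, x i < 2 * n) → (∀ j, y j < 2 * n) →
      (ED (List.ofFn x) (List.ofFn y) : ℝ) ≤ t.eval x y ∧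
      t.eval x y ≤ α * ED (List.ofFn x) (List.ofFn y))
    (hα : 0 ≤ α) (d : ℕ) (hd : d ≤ n) :
    (n : ℝ) ≤ α * (2 * d + ((((t.asked (fun i : Fin n => (i : ℕ))
      (fun j : Fin n => n + (j : ℕ))).map key).toFinset).filter
        (fun p => p.2 = p.1 + d)).card) := by
  set x₀ : Fin n → ℕ := fun i : Fin n => (i : ℕ) with hx₀
  set y₀ : Fin n → ℕ := fun j : Fin n => n + (j : ℕ) with hy₀
  set P : Finset (ℕ × ℕ) := ((t.asked x₀ y₀).map key).toFinset with hP
  set y₁ : Fin n → ℕ := fun j : Fin n => planted n d P (j : ℕ) with hy₁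
  have hkey : ∀ q ∈ t.asked x₀ y₀, key q ∈ P := by
    intro q hq
    simp only [hP, List.mem_toFinset, List.mem_map]
    exact ⟨q, hq, rfl⟩
  have hagree : ∀ q ∈ t.asked x₀ y₀, lcp (suffixAt x₀ y₀ q.1) (suffixAt x₀ y₀ q.2)
      = lcp (suffixAt x₀ y₁ q.1) (suffixAt x₀ y₁ q.2) := by
    rintro ⟨a, b⟩ hq
    have hk := hkey _ hq
    simp only
    by_cases hab : a = b
    · subst hab
      rw [lcp_self, lcp_self]
      exact length_suffixAt _ _ _ _ _
    · rw [(lcp_suffixAt_eq_zero_iff x₀ y₀ a b).2 (distinct_ne a b hab),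
        (lcp_suffixAt_eq_zero_iff x₀ y₁ a b).2 (planted_ne d P a b hab hk)]
  have heval := t.eval_congr x₀ y₀ x₀ y₁ hagree
  have h0 := (hcorrect x₀ y₀
    (fun i => by have := i.2; simp only [hx₀]; omega)
    (fun j => by have := j.2; simp only [hy₀]; omega)).1
  have h1 := (hcorrect x₀ y₁
    (fun i => by have := i.2; simp only [hx₀]; omega) (fun j => by
      have hj := j.2
      simp only [hy₁]
      rcases planted_cases n d P j with ⟨h1, _, _⟩ | h1 <;> rw [h1] <;> omega)).2
  rw [heval] at h1
  have e1 : List.ofFn x₀ = (List.range n).map id := ofFn_eq_map_range n id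
  have e2 : List.ofFn y₀ = (List.range n).map (n + ·) := ofFn_eq_map_range n (n + ·)
  have e3 : List.ofFn y₁ = (List.range n).map (planted n d P) :=
    ofFn_eq_map_range n (planted n d P)
  rw [e1, e2] at h0
  rw [e1, e3] at h1
  have g0 : (n : ℝ) ≤ ED ((List.range n).map id) ((List.range n).map (n + ·)) := by
    exact_mod_cast le_ED_distinct n
  have g1 : (ED ((List.range n).map id) ((List.range n).map (planted n d P)) : ℝ)
      ≤ 2 * d + ((P.filter (fun p => p.2 = p.1 + d)).card : ℝ) := by
    exact_mod_cast ED_planted_le n d hd P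
  calc (n : ℝ) ≤ _ := g0
    _ ≤ _ := h0
    _ ≤ _ := h1
    _ ≤ _ := mul_le_mul_of_nonneg_left g1 hα

theorem sum_diag_le (P : Finset (ℕ × ℕ)) (K : ℕ) :
    ∑ d ∈ Finset.range K, (P.filter (fun p => p.2 = p.1 + d)).card ≤ P.card := by
  rw [← Finset.card_biUnion]
  · apply Finset.card_le_card
    intro p hp
    simp only [Finset.mem_biUnion, Finset.mem_filter] at hp
    obtain ⟨_, _, h, _⟩ := hp
    exact h
  · intro a _ b _ hab
    rw [Function.onFun, Finset.disjoint_left]
    intro p hp hp'
    simp only [Finset.mem_filter] at hp hp'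
    omega

theorem lce_lower (n : ℕ) (α : ℝ) (hα : 1 ≤ α) (t : LceTree n)
    (hcorrect : ∀ x y : Fin n → ℕ, (∀ i, x i < 2 * n) → (∀ j, y j < 2 * n) →
      (ED (List.ofFn x) (List.ofFn y) : ℝ) ≤ t.eval x y ∧
      t.eval x y ≤ α * ED (List.ofFn x) (List.ofFn y)) :
    (n : ℝ) ^ 2 / (4 * α ^ 2) ≤
      t.cost (fun i : Fin n => (i : ℕ)) (fun j : Fin n => n + (j : ℕ)) := by
  have hα0 : 0 < α := by linarith
  set x₀ : Fin n → ℕ := fun i : Fin n => (i : ℕ) with hx₀
  set y₀ : Fin n → ℕ := fun j : Fin n => n + (j : ℕ) with hy₀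
  set P : Finset (ℕ × ℕ) := ((t.asked x₀ y₀).map key).toFinset with hP
  set c : ℕ → ℕ := fun d => (P.filter (fun p => p.2 = p.1 + d)).card with hc
  have hPcard : P.card ≤ t.cost x₀ y₀ := by
    rw [← t.length_asked x₀ y₀]
    calc P.card ≤ ((t.asked x₀ y₀).map key).length := List.toFinset_card_le _
      _ = _ := by simp
  set s : ℝ := n / α with hs
  have hs0 : 0 ≤ s := by positivity
  have hsn : s ≤ n := by
    rw [hs, div_le_iff₀ hα0]
    nlinarith [(Nat.cast_nonneg n : (0:ℝ) ≤ n)]
  have hdiag : ∀ d : ℕ, d ≤ n → s - 2 * d ≤ c d := by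
    intro d hd
    have := diag_bound n α t hcorrect hα0.le d hd
    rw [hs, div_sub' hα0.ne', div_le_iff₀ hα0]
    simp only [hc, hP, hx₀, hy₀]
    linarith
  set K : ℕ := ⌊s / 2⌋₊ with hK
  have hK1 : (K : ℝ) ≤ s / 2 := Nat.floor_le (by positivity)
  have hK2 : s / 2 < K + 1 := Nat.lt_floor_add_one _
  have hKn : K ≤ n := by
    have : (K : ℝ) ≤ n := by linarith
    exact_mod_cast this
  have hsum : ∑ d ∈ Finset.range (K + 1), (s - 2 * d) ≤ ∑ d ∈ Finset.range (K + 1), (c d : ℝ) := by
    apply Finset.sum_le_sum
    intro d hd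
    apply hdiag
    have := Finset.mem_range.1 hd
    omega
  have hsum2 : ∑ d ∈ Finset.range (K + 1), (s - 2 * (d : ℝ)) = (K + 1) * (s - K) := by
    rw [Finset.sum_sub_distrib, ← Finset.mul_sum]
    have := Finset.sum_range_id_mul_two (K + 1)
    have h2 : (∑ i ∈ Finset.range (K + 1), (i : ℝ)) * 2 = (K + 1) * K := by
      have := congrArg (fun z : ℕ => (z : ℝ)) this
      push_cast at this
      simpa using this
    simp only [Finset.sum_const, Finset.card_range, nsmul_eq_mul]
    push_cast
    linarith
  have hle : ∑ d ∈ Finset.range (K + 1), (c d : ℝ) ≤ t.cost x₀ y₀ := by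
    have := (sum_diag_le P (K + 1)).trans hPcard
    exact_mod_cast this
  have hfin : (n : ℝ) ^ 2 / (4 * α ^ 2) = (s / 2) * (s / 2) := by
    rw [hs]; field_simp; ring
  rw [hfin]
  have : (s / 2) * (s / 2) ≤ (K + 1) * (s - K) := by
    apply mul_le_mul <;> linarith
  linarith

/-- Every equality-comparison tree is simulated by a longest-common-extension tree. -/
def CmpTree.toLce {n : ℕ} : CmpTree n → LceTree n
  | .out r => .out r
  | .cmp a b t₁ t₂ => .ask a b (fun k => if k = 0 then t₂.toLce else t₁.toLce)

theorem CmpTree.eval_toLce {n : ℕ} (t : CmpTree n) (x y : Fin n → ℕ) :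
    t.toLce.eval x y = t.eval x y := by
  induction t with
  | out r => rfl
  | cmp a b t₁ t₂ ih₁ ih₂ =>
    simp only [CmpTree.toLce, LceTree.eval, CmpTree.eval]
    by_cases h : Sum.elim x y a = Sum.elim x y b
    · have h0 : lcp (suffixAt x y a) (suffixAt x y b) ≠ 0 := by
        rw [Ne, lcp_suffixAt_eq_zero_iff]; simpa using h
      rw [if_neg h0, if_pos h, ih₁]
    · have h0 : lcp (suffixAt x y a) (suffixAt x y b) = 0 :=
        (lcp_suffixAt_eq_zero_iff x y a b).2 h
      rw [if_pos h0, if_neg h, ih₂]

theorem CmpTree.cost_toLce {n : ℕ} (t : CmpTree n) (x y : Fin n → ℕ) :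
    t.toLce.cost x y = t.cost x y := by
  induction t with
  | out r => rfl
  | cmp a b t₁ t₂ ih₁ ih₂ =>
    simp only [CmpTree.toLce, LceTree.cost, CmpTree.cost]
    by_cases h : Sum.elim x y a = Sum.elim x y b
    · have h0 : lcp (suffixAt x y a) (suffixAt x y b) ≠ 0 := by
        rw [Ne, lcp_suffixAt_eq_zero_iff]; simpa using h
      rw [if_neg h0, if_pos h, ih₁]
    · have h0 : lcp (suffixAt x y a) (suffixAt x y b) = 0 :=
        (lcp_suffixAt_eq_zero_iff x y a b).2 h
      rw [if_pos h0, if_neg h, ih₂]

theorem cmp_lower (n : ℕ) (α : ℝ) (hα : 1 ≤ α) (t : CmpTree n)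
    (hcorrect : ∀ x y : Fin n → ℕ, (∀ i, x i < 2 * n) → (∀ j, y j < 2 * n) →
      (ED (List.ofFn x) (List.ofFn y) : ℝ) ≤ t.eval x y ∧
      t.eval x y ≤ α * ED (List.ofFn x) (List.ofFn y)) :
    (n : ℝ) ^ 2 / (4 * α ^ 2) ≤
      t.cost (fun i : Fin n => (i : ℕ)) (fun j : Fin n => n + (j : ℕ)) := by
  rw [← t.cost_toLce]
  apply lce_lower n α hα
  intro x y hx hy
  rw [t.eval_toLce]
  exact hcorrect x y hx hy

end Vale.Agent.P315
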